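import Vale.Agent.P032.H838.GW.W0
import Vale.Agent.P032.H838.GW.W1
import Vale.Agent.P032.H838.GW.W2
import Vale.Agent.P032.H838.GW.W3

/-!
# The general end: every state is one of the canonical ones
-/

namespace Vale.Agent.P032.H838.GW

open Vale.Agent.P032.H728.G Vale.Agent.P032.H838.GTr Vale.Agent.P032.H838.GD

/-- the column `c` has a table -/
def Pr (c : ℕ) : Prop := ∃ w A t, wchk C 905 c w A t = true

theorem ca {P : ℕ → Prop} {a : ℕ} {l : List ℕ} (h : P a) (h2 : ∀ x ∈ l, P x) : ∀ x ∈ a :: l, P x := by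
  intro x hx
  rcases List.mem_cons.1 hx with rfl | hx
  · exact h
  · exact h2 x hx

theorem p0 : Pr 12301231032 := ⟨_, _, _, s0⟩

theorem p1 : Pr 12301241032 := ⟨_, _, _, s1⟩

theorem p2 : Pr 12301241042 := ⟨_, _, _, s2⟩

theorem p3 : Pr 12301243042 := ⟨_, _, _, s3⟩

theorem p4 : Pr 12301321024 := ⟨_, _, _, s4⟩

theorem p5 : Pr 12301321032 := ⟨_, _, _, s5⟩

theorem p6 : Pr 12301321034 := ⟨_, _, _, s6⟩

theorem p7 : Pr 12301321042 := ⟨_, _, _, s7⟩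

theorem p8 : Pr 12301321043 := ⟨_, _, _, s8⟩

theorem p9 : Pr 12301321045 := ⟨_, _, _, s9⟩

theorem p10 : Pr 12301341032 := ⟨_, _, _, s10⟩

theorem p11 : Pr 12301341043 := ⟨_, _, _, s11⟩

theorem p12 : Pr 12301341243 := ⟨_, _, _, s12⟩

theorem p13 : Pr 12301421024 := ⟨_, _, _, s13⟩

theorem p14 : Pr 12301421032 := ⟨_, _, _, s14⟩

theorem p15 : Pr 12301423024 := ⟨_, _, _, s15⟩

theorem p16 : Pr 12301431032 := ⟨_, _, _, s16⟩

theorem p17 : Pr 12301431034 := ⟨_, _, _, s17⟩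

theorem p18 : Pr 12301431234 := ⟨_, _, _, s18⟩

theorem p19 : Pr 12301451032 := ⟨_, _, _, s19⟩

theorem p20 : Pr 12301451054 := ⟨_, _, _, s20⟩

theorem p21 : Pr 12301451254 := ⟨_, _, _, s21⟩

theorem p22 : Pr 12301453054 := ⟨_, _, _, s22⟩

theorem p23 : Pr 12301453254 := ⟨_, _, _, s23⟩

theorem p24 : Pr 12304123042 := ⟨_, _, _, s24⟩

theorem p25 : Pr 12304123045 := ⟨_, _, _, s25⟩

theorem p26 : Pr 12304123542 := ⟨_, _, _, s26⟩

theorem p27 : Pr 12304124032 := ⟨_, _, _, s27⟩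

theorem p28 : Pr 12304134032 := ⟨_, _, _, s28⟩

theorem p29 : Pr 12304153042 := ⟨_, _, _, s29⟩

theorem p30 : Pr 12304153045 := ⟨_, _, _, s30⟩

theorem p31 : Pr 12304153245 := ⟨_, _, _, s31⟩

theorem p32 : Pr 12304154032 := ⟨_, _, _, s32⟩

theorem p33 : Pr 12304154053 := ⟨_, _, _, s33⟩

theorem p34 : Pr 12304154253 := ⟨_, _, _, s34⟩

theorem p35 : Pr 12304321035 := ⟨_, _, _, s35⟩

theorem p36 : Pr 12304321042 := ⟨_, _, _, s36⟩

theorem p37 : Pr 12304321043 := ⟨_, _, _, s37⟩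

theorem p38 : Pr 12304321045 := ⟨_, _, _, s38⟩

theorem p39 : Pr 12304354032 := ⟨_, _, _, s39⟩

theorem p40 : Pr 12304354053 := ⟨_, _, _, s40⟩

theorem p41 : Pr 12304354253 := ⟨_, _, _, s41⟩

theorem p42 : Pr 12304531035 := ⟨_, _, _, s42⟩

theorem p43 : Pr 12304531045 := ⟨_, _, _, s43⟩

theorem p44 : Pr 12304531235 := ⟨_, _, _, s44⟩

theorem p45 : Pr 12304531245 := ⟨_, _, _, s45⟩

theorem p46 : Pr 12310345043 := ⟨_, _, _, s46⟩

theorem p47 : Pr 12310345243 := ⟨_, _, _, s47⟩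

theorem p48 : Pr 12310435134 := ⟨_, _, _, s48⟩

theorem p49 : Pr 12310435234 := ⟨_, _, _, s49⟩

theorem p50 : Pr 12310453254 := ⟨_, _, _, s50⟩

theorem p51 : Pr 12314305243 := ⟨_, _, _, s51⟩

theorem p52 : Pr 12314354052 := ⟨_, _, _, s52⟩

theorem p53 : Pr 12314503145 := ⟨_, _, _, s53⟩

theorem p54 : Pr 12314503245 := ⟨_, _, _, s54⟩

theorem p55 : Pr 12340521435 := ⟨_, _, _, s55⟩

theorem p56 : Pr 12345103254 := ⟨_, _, _, s56⟩

theorem pall : ∀ x ∈ Vale.Agent.P032.H623.L57, Pr x := by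
  unfold Vale.Agent.P032.H623.L57
  refine ca p0 ?_
  refine ca p1 ?_
  refine ca p2 ?_
  refine ca p3 ?_
  refine ca p4 ?_
  refine ca p5 ?_
  refine ca p6 ?_
  refine ca p7 ?_
  refine ca p8 ?_
  refine ca p9 ?_
  refine ca p10 ?_
  refine ca p11 ?_
  refine ca p12 ?_
  refine ca p13 ?_
  refine ca p14 ?_
  refine ca p15 ?_
  refine ca p16 ?_
  refine ca p17 ?_
  refine ca p18 ?_
  refine ca p19 ?_
  refine ca p20 ?_
  refine ca p21 ?_
  refine ca p22 ?_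
  refine ca p23 ?_
  refine ca p24 ?_
  refine ca p25 ?_
  refine ca p26 ?_
  refine ca p27 ?_
  refine ca p28 ?_
  refine ca p29 ?_
  refine ca p30 ?_
  refine ca p31 ?_
  refine ca p32 ?_
  refine ca p33 ?_
  refine ca p34 ?_
  refine ca p35 ?_
  refine ca p36 ?_
  refine ca p37 ?_
  refine ca p38 ?_
  refine ca p39 ?_
  refine ca p40 ?_
  refine ca p41 ?_
  refine ca p42 ?_
  refine ca p43 ?_
  refine ca p44 ?_
  refine ca p45 ?_
  refine ca p46 ?_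
  refine ca p47 ?_
  refine ca p48 ?_
  refine ca p49 ?_
  refine ca p50 ?_
  refine ca p51 ?_
  refine ca p52 ?_
  refine ca p53 ?_
  refine ca p54 ?_
  refine ca p55 ?_
  refine ca p56 ?_
  intro x hx
  cases hx

theorem statC : StatC C 905 := statC_of pall

end Vale.Agent.P032.H838.GW
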